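import Vale.Agent.P245.Iter2
import Vale.Agent.P245.Final

open MeasureTheory Real
open scoped RealInnerProductSpace ContDiff

namespace Vale.Agent.Results.P245.LogCubed

theorem result : ∃ C : ℝ, ∀ (n : ℕ), 1 ≤ n →
    ∀ (ρ : EuclideanSpace ℝ (Fin n) → ℝ) (μ : Measure (EuclideanSpace ℝ (Fin n))),
    (∀ x, 0 ≤ ρ x) → Convex ℝ {x | 0 < ρ x} →
    ConcaveOn ℝ {x | 0 < ρ x} (fun x => Real.log (ρ x)) →
    μ = volume.withDensity (fun x => ENNReal.ofReal (ρ x)) → IsProbabilityMeasure μ →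
    ∫ x, x ∂μ = 0 →
    ∀ a : ℝ, 0 < a →
    (∀ θ : EuclideanSpace ℝ (Fin n), ‖θ‖ = 1 →
      ∫⁻ x, ENNReal.ofReal (Real.exp (⟪x, θ⟫ ^ 2 / a ^ 2)) ∂μ ≤ 2) →
    ∀ f : EuclideanSpace ℝ (Fin n) → ℝ, ContDiff ℝ ∞ f → HasCompactSupport f →
    (∫ x, f x ^ 2 * Real.log (f x ^ 2) ∂μ) - (∫ x, f x ^ 2 ∂μ) * Real.log (∫ x, f x ^ 2 ∂μ) ≤
      C * (Real.log ((n : ℝ) + 2) ^ 3 * Real.log (Real.log ((n : ℝ) + 16)) ^ 2) * a ^ 2 *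
        ∫ x, ‖gradient f x‖ ^ 2 ∂μ := by
  obtain ⟨C, -, hC⟩ := Vale.Agent.P245.core2
  refine ⟨16 * C, fun n _ ρ μ hρ _ hc hμ hP _ a ha h f hf hcs => ?_⟩
  have h1 := Vale.Agent.P245.final_of_core
    (K := C * (Real.log ((n : ℝ) + 2) ^ 3 * Real.log (Real.log ((n : ℝ) + 16)) ^ 2)) (hC n) hρ hc μ
    hμ ha h (hf.of_le (by exact_mod_cast le_top)) hcs
  unfold Vale.Agent.P245.Ent at h1
  refine h1.trans (le_of_eq ?_)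
  ring

end Vale.Agent.Results.P245.LogCubed
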